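import Vale.Agent.P181.R2.H207.KDefs

set_option autoImplicit false

/-! P181, rows K4 and K6 of Theorem K. -/

namespace Vale.Agent.P181.KT

open Finset

/-- K4 (the tilt minimises). -/
theorem k4 {m c : ℕ} {η x : Fin m → ℝ} (η' : Fin m → ℝ) (h : Mean m c η x) :
    ZZ m c η * Real.exp (-∑ i, η i * x i) ≤ ZZ m c η' * Real.exp (-∑ i, η' i * x i) := by
  have key : ∀ u ∈ Mn m c,
      Real.exp (∑ i, η i * (u i : ℝ)) * Real.exp (-∑ i, η i * x i) +
        Real.exp (-∑ i, η i * x i) * (∑ i, (η' i - η i) *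
          ((u i : ℝ) * Real.exp (∑ k, η k * (u k : ℝ)) - x i * Real.exp (∑ k, η k * (u k : ℝ)))) ≤
      Real.exp (∑ i, η' i * (u i : ℝ)) * Real.exp (-∑ i, η' i * x i) := by
    intro u _
    have h1 : Real.exp (∑ i, η' i * (u i : ℝ)) * Real.exp (-∑ i, η' i * x i) =
        Real.exp (∑ i, η i * (u i : ℝ)) * Real.exp (-∑ i, η i * x i) *
          Real.exp (∑ i, (η' i - η i) * ((u i : ℝ) - x i)) := by
      rw [← Real.exp_add, ← Real.exp_add, ← Real.exp_add]
      congr 1
      rw [← Finset.sum_neg_distrib, ← Finset.sum_neg_distrib, ← Finset.sum_add_distrib,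
        ← Finset.sum_add_distrib, ← Finset.sum_add_distrib]
      refine Finset.sum_congr rfl fun i _ => ?_
      ring
    have h2 := Real.add_one_le_exp (∑ i, (η' i - η i) * ((u i : ℝ) - x i))
    have h3 : 0 < Real.exp (∑ i, η i * (u i : ℝ)) * Real.exp (-∑ i, η i * x i) := by positivity
    have h4 : (∑ i, (η' i - η i) *
          ((u i : ℝ) * Real.exp (∑ k, η k * (u k : ℝ)) - x i * Real.exp (∑ k, η k * (u k : ℝ)))) =
        Real.exp (∑ k, η k * (u k : ℝ)) * ∑ i, (η' i - η i) * ((u i : ℝ) - x i) := by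
      rw [Finset.mul_sum]
      refine Finset.sum_congr rfl fun i _ => ?_
      ring
    rw [h1, h4]
    nlinarith [mul_le_mul_of_nonneg_left h2 h3.le]
  have hs := Finset.sum_le_sum key
  rw [Finset.sum_add_distrib, ← Finset.sum_mul, ← Finset.sum_mul, ← Finset.mul_sum,
    Finset.sum_comm] at hs
  have h0 : ∑ i, ∑ u ∈ Mn m c, (η' i - η i) *
      ((u i : ℝ) * Real.exp (∑ k, η k * (u k : ℝ)) - x i * Real.exp (∑ k, η k * (u k : ℝ))) = 0 := by
    refine Finset.sum_eq_zero fun i _ => ?_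
    rw [← Finset.mul_sum, Finset.sum_sub_distrib, h i, ← Finset.mul_sum]
    change (η' i - η i) * (x i * ZZ m c η - x i * ZZ m c η) = 0
    rw [sub_self, mul_zero]
  rw [h0, mul_zero, add_zero] at hs
  exact hs

lemma ZZ_pos {m c : ℕ} (i : Fin m) (η : Fin m → ℝ) : 0 < ZZ m c η := by
  refine Finset.sum_pos (fun u _ => Real.exp_pos _) ⟨Pi.single i c, ?_⟩
  rw [Mn, Finset.mem_piAntidiag]
  refine ⟨?_, fun _ _ => Finset.mem_univ _⟩
  rw [Finset.sum_pi_single']
  simp

lemma le_of_mem_Mn {m c : ℕ} {u : Fin m → ℕ} (hu : u ∈ Mn m c) (i : Fin m) : u i ≤ c := by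
  rw [Mn, Finset.mem_piAntidiag] at hu
  rw [← hu.1]
  exact Finset.single_le_sum (f := u) (fun _ _ => Nat.zero_le _) (Finset.mem_univ i)

lemma swap_mem_Mn {m c : ℕ} {u : Fin m → ℕ} (hu : u ∈ Mn m c) (i j : Fin m) :
    u ∘ Equiv.swap i j ∈ Mn m c := by
  rw [Mn, Finset.mem_piAntidiag] at hu ⊢
  refine ⟨?_, fun _ _ => Finset.mem_univ _⟩
  rw [← hu.1]
  exact Equiv.sum_comp (Equiv.swap i j) u

/-- K6 (gaps of the tilt). -/
theorem k6 {m c : ℕ} {η x : Fin m → ℝ} {κ : ℝ} (i j : Fin m) (hκ : 0 < κ) (hc : 1 ≤ c)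
    (h : Mean m c η x) (hx : x j + κ * c ≤ x i) : κ ≤ c * (η i - η j) := by
  have hZ : 0 < ZZ m c η := ZZ_pos i η
  have hc' : (0 : ℝ) < c := by exact_mod_cast hc
  set w : (Fin m → ℕ) → ℝ := fun u => Real.exp (∑ k, η k * (u k : ℝ)) with hw
  set d : (Fin m → ℕ) → ℝ := fun u => (u i : ℝ) - (u j : ℝ) with hd
  have hij : i ≠ j := by
    rintro rfl
    have : 0 < κ * c := by positivity
    linarith
  -- the mean of the difference
  have h1 : ∑ u ∈ Mn m c, d u * w u = (x i - x j) * ZZ m c η := by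
    rw [sub_mul, ← h i, ← h j, ← Finset.sum_sub_distrib]
    refine Finset.sum_congr rfl fun u _ => ?_
    simp only [hd, hw]
    ring
  have hdsw : ∀ u, d (u ∘ Equiv.swap i j) = -d u := by
    intro u
    simp only [hd, Function.comp, Equiv.swap_apply_left, Equiv.swap_apply_right]
    ring
  have hsw : ∀ u : Fin m → ℕ, (u ∘ Equiv.swap i j) ∘ Equiv.swap i j = u := by
    intro u
    funext k
    simp [Function.comp]
  -- the tilt of the swapped vector
  have hwsw : ∀ u : Fin m → ℕ, w (u ∘ Equiv.swap i j) = w u * Real.exp (-((η i - η j) * d u)) := by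
    intro u
    simp only [hw]
    rw [← Real.exp_add]
    congr 1
    have h2 : ∑ k, η k * (((u ∘ Equiv.swap i j) k : ℕ) : ℝ) =
        ∑ k, η (Equiv.swap i j k) * (u k : ℝ) := by
      rw [← Equiv.sum_comp (Equiv.swap i j)]
      refine Finset.sum_congr rfl fun k _ => ?_
      simp [Function.comp]
    rw [h2]
    have h3 : ∑ k, η (Equiv.swap i j k) * (u k : ℝ) - ∑ k, η k * (u k : ℝ) =
        ∑ k ∈ ({i, j} : Finset (Fin m)), (η (Equiv.swap i j k) - η k) * (u k : ℝ) := by
      rw [← Finset.sum_sub_distrib]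
      symm
      rw [Finset.sum_subset (Finset.subset_univ ({i, j} : Finset (Fin m)))]
      · refine Finset.sum_congr rfl fun k _ => ?_
        ring
      · intro k _ hk
        rw [Finset.mem_insert, Finset.mem_singleton, not_or] at hk
        rw [Equiv.swap_apply_of_ne_of_ne hk.1 hk.2, sub_self, zero_mul]
    rw [Finset.sum_pair hij, Equiv.swap_apply_left, Equiv.swap_apply_right] at h3
    simp only [hd]
    linear_combination h3
  have h2 : ∑ u ∈ Mn m c, d u * w u =
      ∑ u ∈ Mn m c, max (d u) 0 * (w u - w (u ∘ Equiv.swap i j)) := by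
    have h3 : ∑ u ∈ Mn m c, max (-d u) 0 * w u =
        ∑ u ∈ Mn m c, max (d u) 0 * w (u ∘ Equiv.swap i j) := by
      refine Finset.sum_nbij' (fun u => u ∘ Equiv.swap i j) (fun u => u ∘ Equiv.swap i j)
        (fun u hu => swap_mem_Mn hu i j) (fun u hu => swap_mem_Mn hu i j)
        (fun u _ => hsw u) (fun u _ => hsw u) ?_
      intro u _
      rw [hdsw, hsw]
    simp only [mul_sub]
    rw [Finset.sum_sub_distrib, ← h3, ← Finset.sum_sub_distrib]
    refine Finset.sum_congr rfl fun u _ => ?_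
    rw [← sub_mul]
    congr 1
    rcases le_total (d u) 0 with h4 | h4
    · rw [max_eq_right h4, max_eq_left (by linarith)]
      ring
    · rw [max_eq_left h4, max_eq_right (by linarith)]
      ring
  have h3 : ∀ u ∈ Mn m c, max (d u) 0 * (w u - w (u ∘ Equiv.swap i j)) ≤
      (η i - η j) * (max (d u) 0) ^ 2 * w u := by
    intro u _
    rw [hwsw]
    have hw0 : 0 < w u := Real.exp_pos _
    have h4 := Real.add_one_le_exp (-((η i - η j) * d u))
    rcases le_total (d u) 0 with h5 | h5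
    · rw [max_eq_right h5]
      simp
    · rw [max_eq_left h5]
      have h6 : w u - w u * Real.exp (-((η i - η j) * d u)) ≤ w u * ((η i - η j) * d u) := by
        nlinarith [mul_le_mul_of_nonneg_left h4 hw0.le]
      calc d u * (w u - w u * Real.exp (-((η i - η j) * d u))) ≤
          d u * (w u * ((η i - η j) * d u)) := mul_le_mul_of_nonneg_left h6 h5
        _ = (η i - η j) * (d u) ^ 2 * w u := by ring
  have h4 : (x i - x j) * ZZ m c η ≤ ∑ u ∈ Mn m c, (η i - η j) * (max (d u) 0) ^ 2 * w u := by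
    rw [← h1, h2]
    exact Finset.sum_le_sum h3
  have h5 : κ * c * ZZ m c η ≤ (x i - x j) * ZZ m c η :=
    mul_le_mul_of_nonneg_right (by linarith) hZ.le
  by_cases hneg : η i - η j < 0
  · exfalso
    have h6 : ∑ u ∈ Mn m c, (η i - η j) * (max (d u) 0) ^ 2 * w u ≤ 0 := by
      refine Finset.sum_nonpos fun u _ => ?_
      have hw0 : 0 < w u := Real.exp_pos _
      have : (η i - η j) * (max (d u) 0) ^ 2 ≤ 0 :=
        mul_nonpos_of_nonpos_of_nonneg hneg.le (by positivity)
      exact mul_nonpos_of_nonpos_of_nonneg this hw0.le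
    have h7 : 0 < κ * c * ZZ m c η := by positivity
    linarith
  · have hpos : 0 ≤ η i - η j := not_lt.mp hneg
    have h6 : ∑ u ∈ Mn m c, (η i - η j) * (max (d u) 0) ^ 2 * w u ≤
        (η i - η j) * (c : ℝ) ^ 2 * ZZ m c η := by
      rw [ZZ, Finset.mul_sum]
      refine Finset.sum_le_sum fun u hu => ?_
      have hw0 : 0 < w u := Real.exp_pos _
      have hd1 : max (d u) 0 ≤ c := by
        refine max_le ?_ hc'.le
        have h8 : ((u i : ℕ) : ℝ) ≤ c := by exact_mod_cast le_of_mem_Mn hu i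
        have h9 : (0 : ℝ) ≤ (u j : ℝ) := Nat.cast_nonneg _
        simp only [hd]
        linarith
      have hd0 : 0 ≤ max (d u) 0 := le_max_right _ _
      have h10 : (max (d u) 0) ^ 2 ≤ (c : ℝ) ^ 2 := by
        exact pow_le_pow_left₀ hd0 hd1 2
      exact mul_le_mul_of_nonneg_right (mul_le_mul_of_nonneg_left h10 hpos) hw0.le
    have h7 : κ * c * ZZ m c η ≤ (η i - η j) * (c : ℝ) ^ 2 * ZZ m c η := by linarith
    have h8 : κ * c ≤ (η i - η j) * (c : ℝ) ^ 2 := le_of_mul_le_mul_right h7 hZ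
    have h9 : κ * c ≤ (c * (η i - η j)) * c := by nlinarith
    exact le_of_mul_le_mul_right h9 hc'

end Vale.Agent.P181.KT
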